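import Vale.Agent.P097.H787.Kill

/-! # P097 / ALG-L0: the kill of the linearised law at exponent `0` -/

set_option linter.all false

open Complex Metric Filter Topology Set

namespace Vale.Agent.P097.H787

/-- the source -/
noncomputable def G0 (b : ℝ) (s : ℂ) : ℂ :=
  2 / 3 * ((s + 2) ^ (b : ℂ) - s ^ (b : ℂ)) -
    2 / ((b : ℂ) + 1) * ((s + 2) ^ ((b : ℂ) + 1) + s ^ ((b : ℂ) + 1)) +
    2 / (((b : ℂ) + 1) * ((b : ℂ) + 2)) * ((s + 2) ^ ((b : ℂ) + 2) - s ^ ((b : ℂ) + 2))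

theorem G0_diff (b : ℝ) : DifferentiableOn ℂ (G0 b) slitPlane := by
  intro s hs
  have h1 : s + 2 ∈ slitPlane := by
    have := add_mem_slit hs (x := 2) (by norm_num)
    simpa using this
  have h2 : ∀ a : ℂ, DifferentiableAt ℂ (fun s : ℂ => s ^ a) s := fun a =>
    differentiableAt_id.cpow_const hs
  have h3 : ∀ a : ℂ, DifferentiableAt ℂ (fun s : ℂ => (s + 2) ^ a) s := fun a =>
    (differentiableAt_id.add_const 2).cpow_const h1
  refine DifferentiableAt.differentiableWithinAt ?_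
  unfold G0
  exact (((h3 _).sub (h2 _)).const_mul _ |>.sub (((h3 _).add (h2 _)).const_mul _)).add
    (((h3 _).sub (h2 _)).const_mul _)

/-- primitive of `(v (2 - v)) ^ 2 (s + v) ^ (b - 3)` -/
theorem G0_int {b : ℝ} (hb0 : 0 < b) {s : ℂ} (hs : 0 < s.re) :
    G0 b s = ∫ v in (0 : ℝ)..2, (b : ℂ) * (b - 1) * (b - 2) * (s + v) ^ ((b : ℂ) - 3) *
      ((v * (2 - v)) ^ 2 / 12) := by
  have hb1 : (b : ℂ) + 1 ≠ 0 := by
    exact_mod_cast (by positivity : b + 1 ≠ 0)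
  have hb2 : (b : ℂ) + 2 ≠ 0 := by
    exact_mod_cast (by positivity : b + 2 ≠ 0)
  have hsl : ∀ v : ℝ, 0 ≤ v → s + v ∈ slitPlane := fun v hv => by
    rw [mem_slitPlane_iff]; left
    simp only [add_re, ofReal_re]
    linarith
  set Q : ℝ → ℂ := fun v =>
    (b : ℂ) * (b - 1) * (s + v) ^ ((b : ℂ) - 2) * ((v * (2 - v)) ^ 2 / 12) -
      (b : ℂ) * (s + v) ^ ((b : ℂ) - 1) * (((v : ℂ) - 1) * ((v - 1) ^ 2 - 1) / 3) +
      (s + v) ^ (b : ℂ) * (((v : ℂ) - 1) ^ 2 - 1 / 3) -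
      (s + v) ^ ((b : ℂ) + 1) / (b + 1) * (2 * ((v : ℂ) - 1)) +
      (s + v) ^ ((b : ℂ) + 2) / ((b + 1) * (b + 2)) * 2 with hQ
  have hd : ∀ v ∈ uIcc (0 : ℝ) 2, HasDerivAt Q
      ((b : ℂ) * (b - 1) * (b - 2) * (s + v) ^ ((b : ℂ) - 3) * ((v * (2 - v)) ^ 2 / 12)) v := by
    intro v hv
    rw [uIcc_of_le (by norm_num)] at hv
    have hm := hsl v hv.1
    have h0 : s + v ≠ 0 := slitPlane_ne_zero hm
    have hc : ∀ a : ℂ, HasDerivAt (fun v : ℝ => (s + (v : ℂ)) ^ a) (a * (s + v) ^ (a - 1)) v := by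
      intro a
      have h1 : HasDerivAt (fun z : ℂ => s + z) 1 (v : ℂ) := by
        simpa using (hasDerivAt_id (v : ℂ)).const_add s
      have h2 := (h1.cpow_const (c := a) hm).comp_ofReal
      simpa using h2
    have hp : ∀ P : ℂ → ℂ, ∀ P' : ℂ, HasDerivAt P P' (v : ℂ) →
        HasDerivAt (fun v : ℝ => P v) P' v := fun P P' h => h.comp_ofReal
    have q0 : HasDerivAt (fun v : ℝ => (((v : ℂ) * (2 - v)) ^ 2 / 12))
        (((v : ℂ) - 1) * ((v - 1) ^ 2 - 1) / 3) v := by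
      refine hp (fun z => (z * (2 - z)) ^ 2 / 12) _ ?_
      have h1 := (((hasDerivAt_id (v : ℂ)).mul ((hasDerivAt_id (v : ℂ)).const_sub 2)).pow 2).div_const
        12
      refine h1.congr_deriv ?_
      simp only [Pi.mul_apply, Pi.pow_apply, id]
      push_cast
      ring
    have q1 : HasDerivAt (fun v : ℝ => (((v : ℂ) - 1) * ((v - 1) ^ 2 - 1) / 3))
        (((v : ℂ) - 1) ^ 2 - 1 / 3) v := by
      refine hp (fun z => (z - 1) * ((z - 1) ^ 2 - 1) / 3) _ ?_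
      have h0 := (hasDerivAt_id (v : ℂ)).sub_const 1
      have h1 := ((h0.mul ((h0.pow 2).sub_const 1))).div_const 3
      refine h1.congr_deriv ?_
      simp only [Pi.mul_apply, Pi.pow_apply, id]
      push_cast
      ring
    have q2 : HasDerivAt (fun v : ℝ => (((v : ℂ) - 1) ^ 2 - 1 / 3)) (2 * ((v : ℂ) - 1)) v := by
      refine hp (fun z => (z - 1) ^ 2 - 1 / 3) _ ?_
      have h0 := (hasDerivAt_id (v : ℂ)).sub_const 1
      have h1 := (h0.pow 2).sub_const (1 / 3)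
      refine h1.congr_deriv ?_
      simp only [Pi.mul_apply, Pi.pow_apply, id]
      push_cast
      ring
    have q3 : HasDerivAt (fun v : ℝ => (2 * ((v : ℂ) - 1))) 2 v := by
      refine hp (fun z => 2 * (z - 1)) _ ?_
      have h0 := ((hasDerivAt_id (v : ℂ)).sub_const 1).const_mul 2
      refine h0.congr_deriv ?_
      simp
    have t0 := ((hc ((b : ℂ) - 2)).const_mul ((b : ℂ) * (b - 1))).mul q0
    have t1 := ((hc ((b : ℂ) - 1)).const_mul (b : ℂ)).mul q1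
    have t2 := (hc (b : ℂ)).mul q2
    have t3 := ((hc ((b : ℂ) + 1)).div_const ((b : ℂ) + 1)).mul q3
    have t4 := ((hc ((b : ℂ) + 2)).div_const (((b : ℂ) + 1) * (b + 2))).mul_const 2
    have t := (((t0.sub t1).add t2).sub t3).add t4
    refine t.congr_deriv ?_
    rw [show (b : ℂ) - 2 - 1 = b - 3 by ring, show (b : ℂ) - 1 - 1 = b - 2 by ring,
      show (b : ℂ) + 1 - 1 = b by ring, show (b : ℂ) + 2 - 1 = b + 1 by ring]
    field_simp
    ring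
  have hcont : ContinuousOn (fun v : ℝ => (b : ℂ) * (b - 1) * (b - 2) * (s + v) ^ ((b : ℂ) - 3) *
      ((v * (2 - v)) ^ 2 / 12)) (uIcc 0 2) := by
    intro v hv
    rw [uIcc_of_le (by norm_num)] at hv
    refine ContinuousAt.continuousWithinAt ?_
    have h1 : ContinuousAt (fun v : ℝ => s + (v : ℂ)) v := by fun_prop
    have h2 := h1.cpow (continuousAt_const (y := (b : ℂ) - 3)) (hsl v hv.1)
    have h3 : ContinuousAt (fun v : ℝ => (((v : ℂ) * (2 - v)) ^ 2 / 12)) v := by fun_prop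
    exact (h2.const_mul _).mul h3
  rw [intervalIntegral.integral_eq_sub_of_hasDerivAt hd hcont.intervalIntegrable]
  simp only [hQ, G0]
  push_cast
  rw [add_zero]
  field_simp
  ring

theorem G0_bound {b : ℝ} (hb0 : 0 < b) (hb3 : b < 3) {s : ℂ} (hs : 1 ≤ s.re) :
    ‖G0 b s‖ ≤ (‖(b : ℂ) * (b - 1) * (b - 2)‖ * (1 / 12) * 2) * ‖s‖ ^ (-(3 - b)) := by
  have hs0 : 0 < s.re := by linarith
  rw [G0_int hb0 hs0]
  have h1 : ∀ v ∈ uIoc (0 : ℝ) 2, ‖(b : ℂ) * (b - 1) * (b - 2) * (s + v) ^ ((b : ℂ) - 3) *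
      ((v * (2 - v)) ^ 2 / 12)‖ ≤ ‖(b : ℂ) * (b - 1) * (b - 2)‖ * (1 / 12) * ‖s‖ ^ (-(3 - b)) := by
    intro v hv
    rw [uIoc_of_le (by norm_num)] at hv
    have e1 : s + v ≠ 0 := by
      intro h
      have := congrArg Complex.re h
      simp only [add_re, ofReal_re, zero_re] at this
      linarith [hv.1]
    have e2 : ‖(s + v) ^ ((b : ℂ) - 3)‖ ≤ ‖s‖ ^ (-(3 - b)) := by
      have e3 : (b : ℂ) - 3 = ((b - 3 : ℝ) : ℂ) := by push_cast; ring
      rw [e3, Complex.norm_cpow_real, show -(3 - b) = b - 3 by ring]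
      refine Real.rpow_le_rpow_of_nonpos ?_ ?_ (by linarith)
      · exact lt_of_lt_of_le hs0 (Complex.re_le_norm s)
      · rw [← Real.sqrt_sq (norm_nonneg s), ← Real.sqrt_sq (norm_nonneg (s + v))]
        refine Real.sqrt_le_sqrt ?_
        rw [Complex.sq_norm, Complex.sq_norm, Complex.normSq_apply, Complex.normSq_apply]
        simp only [add_re, ofReal_re, add_im, ofReal_im, add_zero]
        nlinarith [hv.1]
    have e4 : ‖(((v : ℂ) * (2 - v)) ^ 2 / 12)‖ ≤ 1 / 12 := by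
      have e5 : (((v : ℂ) * (2 - v)) ^ 2 / 12) = (((v * (2 - v)) ^ 2 / 12 : ℝ) : ℂ) := by
        push_cast; ring
      rw [e5, Complex.norm_real, Real.norm_of_nonneg (by positivity)]
      have e6 : 0 ≤ v * (2 - v) := mul_nonneg hv.1.le (by linarith [hv.2])
      have e7 : v * (2 - v) ≤ 1 := by nlinarith [sq_nonneg (v - 1)]
      have e8 : (v * (2 - v)) ^ 2 ≤ 1 := by nlinarith
      linarith
    rw [norm_mul, norm_mul]
    calc ‖(b : ℂ) * (b - 1) * (b - 2)‖ * ‖(s + v) ^ ((b : ℂ) - 3)‖ * ‖(((v : ℂ) * (2 - v)) ^ 2 / 12)‖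
        ≤ ‖(b : ℂ) * (b - 1) * (b - 2)‖ * ‖s‖ ^ (-(3 - b)) * (1 / 12) := by gcongr
      _ = _ := by ring
  have h2 := intervalIntegral.norm_integral_le_of_norm_le_const h1
  refine h2.trans (le_of_eq ?_)
  rw [sub_zero, abs_of_pos (by norm_num : (0 : ℝ) < 2)]
  ring

/-- the source integral -/
theorem src_int {b : ℝ} (hb0 : 0 < b) {x : ℝ} (hx : 0 < x) :
    ∫ v in (0 : ℝ)..2, ((x : ℂ) + v) ^ (b : ℂ) * (v - 1) =
      (((x : ℂ) + 2) ^ ((b : ℂ) + 2) - (x : ℂ) ^ ((b : ℂ) + 2)) / (b + 2) -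
        (x + 1) * (((x : ℂ) + 2) ^ ((b : ℂ) + 1) - (x : ℂ) ^ ((b : ℂ) + 1)) / (b + 1) := by
  have hb1 : (b : ℂ) + 1 ≠ 0 := by
    exact_mod_cast (by positivity : b + 1 ≠ 0)
  have hb2 : (b : ℂ) + 2 ≠ 0 := by
    exact_mod_cast (by positivity : b + 2 ≠ 0)
  have hsl : ∀ v : ℝ, 0 ≤ v → (x : ℂ) + v ∈ slitPlane := fun v hv => by
    rw [mem_slitPlane_iff]; left
    simp only [add_re, ofReal_re]
    linarith
  set Q : ℝ → ℂ := fun v => ((x : ℂ) + v) ^ ((b : ℂ) + 2) / (b + 2) -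
    (x + 1) * (((x : ℂ) + v) ^ ((b : ℂ) + 1) / (b + 1)) with hQ
  have hd : ∀ v ∈ uIcc (0 : ℝ) 2, HasDerivAt Q (((x : ℂ) + v) ^ (b : ℂ) * (v - 1)) v := by
    intro v hv
    rw [uIcc_of_le (by norm_num)] at hv
    have hm := hsl v hv.1
    have h0 : (x : ℂ) + v ≠ 0 := slitPlane_ne_zero hm
    have hc : ∀ a : ℂ, HasDerivAt (fun v : ℝ => ((x : ℂ) + (v : ℂ)) ^ a)
        (a * (x + v) ^ (a - 1)) v := by
      intro a
      have h1 : HasDerivAt (fun z : ℂ => (x : ℂ) + z) 1 (v : ℂ) := by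
        simpa using (hasDerivAt_id (v : ℂ)).const_add (x : ℂ)
      have h2 := (h1.cpow_const (c := a) hm).comp_ofReal
      simpa using h2
    have t := ((hc ((b : ℂ) + 2)).div_const ((b : ℂ) + 2)).sub
      (((hc ((b : ℂ) + 1)).div_const ((b : ℂ) + 1)).const_mul ((x : ℂ) + 1))
    refine t.congr_deriv ?_
    rw [show (b : ℂ) + 2 - 1 = b + 1 by ring, show (b : ℂ) + 1 - 1 = b by ring,
      Complex.cpow_add _ _ h0, Complex.cpow_one]
    field_simp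
    ring
  have hcont : ContinuousOn (fun v : ℝ => ((x : ℂ) + v) ^ (b : ℂ) * ((v : ℂ) - 1)) (uIcc 0 2) := by
    intro v hv
    rw [uIcc_of_le (by norm_num)] at hv
    refine ContinuousAt.continuousWithinAt ?_
    have h1 : ContinuousAt (fun v : ℝ => (x : ℂ) + (v : ℂ)) v := by fun_prop
    have h2 := h1.cpow (continuousAt_const (y := (b : ℂ))) (hsl v hv.1)
    have h3 : ContinuousAt (fun v : ℝ => ((v : ℂ) - 1)) v := by fun_prop
    exact h2.mul h3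
  rw [intervalIntegral.integral_eq_sub_of_hasDerivAt hd hcont.intervalIntegrable]
  simp only [hQ]
  push_cast
  rw [add_zero]
  ring

/-- ALG-L0, the kill (helper357's `K0`, #8439) -/
theorem k0 : ∀ (b : ℝ) (f : ℂ → ℂ), 0 < b → b < 2 → b ≠ 1 → AnalyticAt ℂ f 0 →
    (∀ᶠ y in 𝓝 (0 : ℂ), f (-y) = -f y) →
    ((fun y : ℂ => f y - 2 / 3 * y ^ 3) =O[𝓝 0] fun y : ℂ => y ^ 5) →
    (∀ᶠ y in 𝓝 (0 : ℂ), f y - (1 + 2 * y) ^ ((b : ℂ) + 3) * f (y / (1 + 2 * y)) =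
      -(2 * y ^ 3 * ∫ v in (0 : ℝ)..2, (1 + y * v) ^ (b : ℂ) * (v - 1))) → False := by
  intro b f hb0 hb2 hb1 hf odd hO law
  set F : ℂ → ℂ := fun y => f y - 2 / 3 * y ^ 3 with hF
  have hFan : AnalyticAt ℂ F 0 :=
    hf.sub (analyticAt_const.mul (analyticAt_id.pow 3))
  have hFodd : ∀ᶠ y in 𝓝 (0 : ℂ), F (-y) = -F y := by
    filter_upwards [odd] with y hy
    simp only [hF]
    rw [hy]
    ring
  have hinv : Tendsto (fun x : ℝ => 1 / (x : ℂ)) atTop (𝓝 0) := by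
    have h1 : Tendsto (fun x : ℝ => ((x⁻¹ : ℝ) : ℂ)) atTop (𝓝 ((0 : ℝ) : ℂ)) :=
      (Complex.continuous_ofReal.tendsto 0).comp tendsto_inv_atTop_zero
    rw [Complex.ofReal_zero] at h1
    refine h1.congr fun x => ?_
    push_cast
    rw [one_div]
  have h0 : Tendsto (fun x : ℝ => (x : ℂ) ^ ((b : ℂ) + 3) * F (1 / x)) atTop (𝓝 0) := by
    obtain ⟨K, hK⟩ := hO.bound
    have h1 : ∀ᶠ x : ℝ in atTop, ‖(x : ℂ) ^ ((b : ℂ) + 3) * F (1 / x)‖ ≤ K * x ^ (-(2 - b)) := by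
      filter_upwards [hinv.eventually hK, eventually_gt_atTop 0] with x hx hx0
      rw [norm_mul]
      have e1 : ‖(x : ℂ) ^ ((b : ℂ) + 3)‖ = x ^ (b + 3) := by
        rw [show (b : ℂ) + 3 = ((b + 3 : ℝ) : ℂ) by push_cast; ring, Complex.norm_cpow_real,
          Complex.norm_real, Real.norm_of_nonneg hx0.le]
      have e2 : ‖((1 / (x : ℂ)) ^ 5)‖ = x ^ (-(5 : ℝ)) := by
        rw [norm_pow, norm_div, norm_one, Complex.norm_real, Real.norm_of_nonneg hx0.le,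
          Real.rpow_neg hx0.le, one_div, inv_pow]
        congr 1
        exact_mod_cast (Real.rpow_natCast x 5).symm
      rw [e1]
      rw [e2] at hx
      calc x ^ (b + 3) * ‖F (1 / x)‖ ≤ x ^ (b + 3) * (K * x ^ (-(5 : ℝ))) := by
            gcongr
        _ = K * (x ^ (b + 3) * x ^ (-(5 : ℝ))) := by ring
        _ = K * x ^ (-(2 - b)) := by
            rw [← Real.rpow_add hx0]
            congr 2
            ring
    have h2 : Tendsto (fun x : ℝ => K * x ^ (-(2 - b))) atTop (𝓝 0) := by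
      have := (tendsto_rpow_neg_atTop (show 0 < 2 - b by linarith)).const_mul K
      rwa [mul_zero] at this
    rw [tendsto_zero_iff_norm_tendsto_zero]
    exact squeeze_zero' (Filter.Eventually.of_forall fun x => norm_nonneg _) h1 h2
  have hbn : ∀ n : ℕ, (n : ℝ) ≠ b + 1 := by
    intro n hn
    have h1 : (1 : ℝ) < n := by rw [hn]; linarith
    have h2 : (n : ℝ) < 3 := by rw [hn]; linarith
    have h3 : 1 < n := by exact_mod_cast h1
    have h4 : n < 3 := by exact_mod_cast h2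
    have h5 : n = 2 := by omega
    rw [h5] at hn
    apply hb1
    push_cast at hn
    linarith
  have hb1' : (b : ℂ) + 1 ≠ 0 := by
    exact_mod_cast (by positivity : b + 1 ≠ 0)
  have hb2' : (b : ℂ) + 2 ≠ 0 := by
    exact_mod_cast (by positivity : b + 2 ≠ 0)
  have rel : ∀ᶠ x : ℝ in atTop, (x : ℂ) ^ ((b : ℂ) + 3) * F (1 / x) -
      ((x : ℂ) + (2 : ℝ)) ^ ((b : ℂ) + 3) * F (1 / (x + (2 : ℝ))) = G0 b x := by
    filter_upwards [hinv.eventually law, eventually_gt_atTop 0] with x hx hx0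
    have hxc : (x : ℂ) ≠ 0 := by exact_mod_cast hx0.ne'
    have hx2 : (x : ℂ) + 2 ≠ 0 := by exact_mod_cast (by positivity : x + 2 ≠ 0)
    have e1 : (1 : ℂ) + 2 * (1 / x) = ((x⁻¹ : ℝ) : ℂ) * (x + 2) := by
      push_cast
      field_simp
    have e2 : (1 / (x : ℂ)) / (1 + 2 * (1 / x)) = 1 / (x + 2) := by
      field_simp
    rw [e2, e1, real_mul_cpow (by positivity) hx2] at hx
    have e3 : (x : ℂ) ^ ((b : ℂ) + 3) * ((x⁻¹ : ℝ) : ℂ) ^ ((b : ℂ) + 3) = 1 := by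
      have := real_mul_cpow (y := x) hx0 (z := ((x⁻¹ : ℝ) : ℂ))
        (by exact_mod_cast (inv_pos.2 hx0).ne') ((b : ℂ) + 3)
      rw [← this]
      push_cast
      rw [mul_inv_cancel₀ hxc, Complex.one_cpow]
    have e4 : (x : ℂ) ^ ((b : ℂ) + 3) * ((1 / (x : ℂ)) ^ 3 * ∫ v in (0 : ℝ)..2,
        (1 + 1 / (x : ℂ) * v) ^ (b : ℂ) * (v - 1)) =
        ∫ v in (0 : ℝ)..2, ((x : ℂ) + v) ^ (b : ℂ) * (v - 1) := by
      have e5 : (x : ℂ) ^ ((b : ℂ) + 3) * (1 / (x : ℂ)) ^ 3 = (x : ℂ) ^ (b : ℂ) := by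
        rw [Complex.cpow_add _ _ hxc]
        have : (x : ℂ) ^ (3 : ℂ) = (x : ℂ) ^ 3 := by
          exact_mod_cast Complex.cpow_natCast (x : ℂ) 3
        rw [this]
        field_simp
      rw [← mul_assoc, e5, ← intervalIntegral.integral_const_mul]
      refine intervalIntegral.integral_congr fun v hv => ?_
      rw [uIcc_of_le (by norm_num)] at hv
      have e6 : (1 : ℂ) + 1 / (x : ℂ) * v ≠ 0 := by
        have : (0 : ℝ) < 1 + 1 / x * v := by
          have := hv.1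
          positivity
        exact_mod_cast this.ne'
      show (x : ℂ) ^ (b : ℂ) * ((1 + 1 / (x : ℂ) * v) ^ (b : ℂ) * (v - 1)) = _
      rw [← mul_assoc, ← real_mul_cpow hx0 e6]
      congr 2
      field_simp
    have e7 := src_int hb0 hx0
    have e8 : (x : ℂ) ^ ((b : ℂ) + 3) * (f (1 / x) - (((x⁻¹ : ℝ) : ℂ) ^ ((b : ℂ) + 3) *
        ((x : ℂ) + 2) ^ ((b : ℂ) + 3)) * f (1 / (x + 2))) =
        -2 * ∫ v in (0 : ℝ)..2, ((x : ℂ) + v) ^ (b : ℂ) * (v - 1) := by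
      rw [hx, ← e4]
      ring
    rw [e7] at e8
    have pw : ∀ z : ℂ, z ≠ 0 → z ^ ((b : ℂ) + 3) = z ^ (b : ℂ) * z ^ 3 := by
      intro z hz
      rw [Complex.cpow_add _ _ hz]
      congr 1
      exact_mod_cast Complex.cpow_natCast z 3
    have p1 : ∀ z : ℂ, z ≠ 0 → z ^ ((b : ℂ) + 1) = z ^ (b : ℂ) * z := by
      intro z hz
      rw [Complex.cpow_add _ _ hz, Complex.cpow_one]
    have p2 : ∀ z : ℂ, z ≠ 0 → z ^ ((b : ℂ) + 2) = z ^ (b : ℂ) * z ^ 2 := by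
      intro z hz
      rw [Complex.cpow_add _ _ hz]
      congr 1
      exact_mod_cast Complex.cpow_natCast z 2
    have e9 : (x : ℂ) ^ ((b : ℂ) + 3) * f (1 / x) -
        ((x : ℂ) + 2) ^ ((b : ℂ) + 3) * f (1 / (x + 2)) = -2 * ((((x : ℂ) + 2) ^ ((b : ℂ) + 2) -
          (x : ℂ) ^ ((b : ℂ) + 2)) / (b + 2) -
        (x + 1) * (((x : ℂ) + 2) ^ ((b : ℂ) + 1) - (x : ℂ) ^ ((b : ℂ) + 1)) / (b + 1)) := by
      rw [← e8]
      linear_combination (((x : ℂ) + 2) ^ ((b : ℂ) + 3) * f (1 / (x + 2))) * e3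
    simp only [hF, G0]
    push_cast
    have e10 : (x : ℂ) ^ ((b : ℂ) + 3) * (2 / 3 * (1 / (x : ℂ)) ^ 3) = 2 / 3 * (x : ℂ) ^ (b : ℂ) := by
      rw [pw _ hxc]
      field_simp
    have e11 : ((x : ℂ) + 2) ^ ((b : ℂ) + 3) * (2 / 3 * (1 / ((x : ℂ) + 2)) ^ 3) =
        2 / 3 * ((x : ℂ) + 2) ^ (b : ℂ) := by
      rw [pw _ hx2]
      field_simp
    have e12 : (x : ℂ) ^ ((b : ℂ) + 3) * (f (1 / x) - 2 / 3 * (1 / (x : ℂ)) ^ 3) -
        ((x : ℂ) + 2) ^ ((b : ℂ) + 3) * (f (1 / (x + 2)) - 2 / 3 * (1 / ((x : ℂ) + 2)) ^ 3) =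
        ((x : ℂ) ^ ((b : ℂ) + 3) * f (1 / x) -
        ((x : ℂ) + 2) ^ ((b : ℂ) + 3) * f (1 / (x + 2))) - 2 / 3 * (x : ℂ) ^ (b : ℂ) +
          2 / 3 * ((x : ℂ) + 2) ^ (b : ℂ) := by
      rw [mul_sub, mul_sub, e10, e11]
      ring
    rw [e12, e9, p1 _ hxc, p1 _ hx2, p2 _ hxc, p2 _ hx2]
    field_simp
    ring
  have hA : AnalyticAt ℂ (fun s : ℂ => 2 / 3 * (s + 2) ^ (b : ℂ) -
      2 / ((b : ℂ) + 1) * (s + 2) ^ ((b : ℂ) + 1) +
      2 / (((b : ℂ) + 1) * ((b : ℂ) + 2)) * (s + 2) ^ ((b : ℂ) + 2)) 0 := by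
    have h1 : AnalyticAt ℂ (fun s : ℂ => s + 2) 0 := analyticAt_id.add analyticAt_const
    have h2 : ∀ a : ℂ, AnalyticAt ℂ (fun s : ℂ => (s + 2) ^ a) 0 := fun a =>
      h1.cpow analyticAt_const (by rw [mem_slitPlane_iff]; left; simp)
    exact ((analyticAt_const.mul (h2 _)).sub (analyticAt_const.mul (h2 _))).add
      (analyticAt_const.mul (h2 _))
  have key := kill (b := b) (d := 2) (q := 3 - b)
    (C := ‖(b : ℂ) * (b - 1) * (b - 2)‖ * (1 / 12) * 2) hbn (by norm_num) (by linarith) hFan hFodd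
    (G0_diff b) (fun s hs => G0_bound hb0 (by linarith) hs) h0 rel hA
    (c0 := -(2 / 3)) (c1 := -(2 / ((b : ℂ) + 1)))
    (c2 := -(2 / (((b : ℂ) + 1) * ((b : ℂ) + 2))))
    (Filter.Eventually.of_forall fun s hs => by simp only [G0]; ring)
  have h5 : (2 : ℂ) / ((b : ℂ) + 1) ≠ 0 := div_ne_zero two_ne_zero hb1'
  exact h5 (neg_eq_zero.1 key)

end Vale.Agent.P097.H787
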