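import Mathlib

/-! # P097 / ALG: the one-variable kill of a linearised pencil law

`Φ (x) - Φ (x + d) = G (x)` with `Φ (x) = x ^ (b + 3) F (1 / x)`, `F` odd and analytic at `0`, has no
solution tending to `0` if `G` has a term `s ^ (b + 1)` at `s = 0`.  Owner: helper787. -/

set_option linter.all false

open Complex Metric Filter Topology Set

namespace Vale.Agent.P097.H787

/-! ## 1. Non-integer powers are not analytic -/

theorem nonint {f : ℂ → ℂ} (hf : AnalyticAt ℂ f 0) {p : ℝ} (hp : ∀ n : ℕ, (n : ℝ) ≠ p) {C : ℂ}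
    (h : ∀ᶠ y : ℝ in 𝓝[>] 0, f y = C * ((y ^ p : ℝ) : ℂ)) : C = 0 := by
  by_contra hC
  have hcast : Tendsto (fun y : ℝ => (y : ℂ)) (𝓝[>] 0) (𝓝 0) := by
    have : Tendsto (fun y : ℝ => (y : ℂ)) (𝓝 0) (𝓝 ((0 : ℝ) : ℂ)) :=
      Complex.continuous_ofReal.tendsto 0
    rw [Complex.ofReal_zero] at this
    exact this.mono_left nhdsWithin_le_nhds
  rcases hf.eventually_eq_zero_or_eventually_ne_zero with h0 | h0
  · have h1 : ∀ᶠ y : ℝ in 𝓝[>] 0, f y = 0 := hcast.eventually h0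
    obtain ⟨y, ⟨hy1, hy2⟩, hy3⟩ := ((h.and h1).and self_mem_nhdsWithin).exists
    rw [hy2] at hy1
    have hy4 : (0 : ℝ) < y := hy3
    have : ((y ^ p : ℝ) : ℂ) ≠ 0 := by
      exact_mod_cast (Real.rpow_pos_of_pos hy4 p).ne'
    exact (mul_ne_zero hC this) hy1.symm
  · have hne : ¬ ∀ᶠ z in 𝓝 (0 : ℂ), f z = 0 := by
      intro h1
      have h2 : ∀ᶠ z in 𝓝[≠] (0 : ℂ), f z = 0 := h1.filter_mono nhdsWithin_le_nhds
      obtain ⟨z, hz1, hz2⟩ := (h2.and h0).exists
      exact hz2 hz1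
    obtain ⟨n, g, hg, hg0, hfg⟩ := (hf.exists_eventuallyEq_pow_smul_nonzero_iff).2 hne
    have h1 : ∀ᶠ y : ℝ in 𝓝[>] 0, f y = ((y : ℂ) - 0) ^ n • g y := hcast.eventually hfg
    have h2 : ∀ᶠ y : ℝ in 𝓝[>] 0, g y = C * ((y ^ (p - n) : ℝ) : ℂ) := by
      filter_upwards [h, h1, self_mem_nhdsWithin] with y hy1 hy2 hy3
      have hy4 : (0 : ℝ) < y := hy3
      have hyn : ((y : ℂ)) ^ n ≠ 0 := pow_ne_zero _ (by exact_mod_cast hy4.ne')
      rw [hy2, sub_zero, smul_eq_mul] at hy1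
      rw [Real.rpow_sub hy4, Real.rpow_natCast]
      push_cast
      rw [← mul_div_assoc, eq_div_iff hyn, mul_comm, hy1]
    have h3 : Tendsto (fun y : ℝ => g y) (𝓝[>] 0) (𝓝 (g 0)) := hg.continuousAt.tendsto.comp hcast
    rcases lt_or_gt_of_ne (hp n) with hlt | hgt
    · -- `p > n`
      have h4 : Tendsto (fun y : ℝ => C * ((y ^ (p - n) : ℝ) : ℂ)) (𝓝[>] 0) (𝓝 (C * ((0 : ℝ) : ℂ))) := by
        refine Tendsto.const_mul _ ?_
        have h5 : Tendsto (fun y : ℝ => y ^ (p - n)) (𝓝[>] 0) (𝓝 0) := by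
          have := (Real.continuousAt_rpow_const 0 (p - n) (Or.inr (by linarith))).tendsto
          rw [Real.zero_rpow (by linarith)] at this
          exact this.mono_left nhdsWithin_le_nhds
        exact (Complex.continuous_ofReal.tendsto 0).comp h5
      have h6 : Tendsto (fun y : ℝ => g y) (𝓝[>] 0) (𝓝 (C * ((0 : ℝ) : ℂ))) :=
        h4.congr' (h2.mono fun y hy => hy.symm)
      have h7 := tendsto_nhds_unique h3 h6
      rw [Complex.ofReal_zero, mul_zero] at h7
      exact hg0 h7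
    · -- `p < n`
      have h2' : ∀ᶠ y : ℝ in 𝓝[>] 0, g y * ((y ^ (n - p : ℝ) : ℝ) : ℂ) = C := by
        filter_upwards [h2, self_mem_nhdsWithin] with y hy1 hy3
        have hy4 : (0 : ℝ) < y := hy3
        rw [hy1, mul_assoc, ← Complex.ofReal_mul, ← Real.rpow_add hy4]
        simp
      have h5 : Tendsto (fun y : ℝ => y ^ ((n : ℝ) - p)) (𝓝[>] 0) (𝓝 0) := by
        have := (Real.continuousAt_rpow_const 0 ((n : ℝ) - p) (Or.inr (by linarith))).tendsto
        rw [Real.zero_rpow (by linarith)] at this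
        exact this.mono_left nhdsWithin_le_nhds
      have h6 : Tendsto (fun y : ℝ => g y * ((y ^ (n - p : ℝ) : ℝ) : ℂ)) (𝓝[>] 0)
          (𝓝 (g 0 * ((0 : ℝ) : ℂ))) := h3.mul ((Complex.continuous_ofReal.tendsto 0).comp h5)
      have h7 : Tendsto (fun y : ℝ => C) (𝓝[>] 0) (𝓝 (g 0 * ((0 : ℝ) : ℂ))) :=
        h6.congr' h2'
      have h8 := tendsto_nhds_unique h7 tendsto_const_nhds
      rw [Complex.ofReal_zero, mul_zero] at h8
      exact hC h8.symm

/-! ## 2. The sum over the translates -/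

/-- `∑ G (s + d k)` -/
noncomputable def Psi (G : ℂ → ℂ) (d : ℝ) (s : ℂ) : ℂ := ∑' k : ℕ, G (s + d * k)

theorem add_mem_slit {s : ℂ} (hs : s ∈ slitPlane) {x : ℝ} (hx : 0 ≤ x) :
    s + x ∈ slitPlane := by
  rw [mem_slitPlane_iff] at hs ⊢
  simp only [add_re, ofReal_re, add_im, ofReal_im, add_zero]
  rcases hs with h | h
  · left; linarith
  · right; exact h

theorem add_mem_slit' {s : ℂ} (hs : s ∈ slitPlane) {d : ℝ} (hd : 0 < d) (k : ℕ) :
    s + d * k ∈ slitPlane := by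
  have := add_mem_slit hs (x := d * k) (by positivity)
  push_cast at this
  exact this

theorem summable_bd {d q : ℝ} (hd : 0 < d) (hq : 1 < q) (C : ℝ) :
    Summable fun k : ℕ => C * (1 + d * k) ^ (-q) := by
  refine Summable.mul_left _ ?_
  have h1 := (Real.summable_one_div_nat_add_rpow (1 / d) q).2 hq
  have h2 : (fun k : ℕ => (1 + d * k) ^ (-q)) =
      fun k : ℕ => d ^ (-q) * (1 / |(k : ℝ) + 1 / d| ^ q) := by
    funext k
    have h3 : (0 : ℝ) < (k : ℝ) + 1 / d := by positivity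
    rw [abs_of_pos h3, one_div ((((k : ℝ) + 1 / d)) ^ q), ← Real.rpow_neg h3.le,
      ← Real.mul_rpow hd.le h3.le]
    congr 1
    field_simp
    ring
  rw [h2]
  exact h1.mul_left _

section

variable {G : ℂ → ℂ} {d q C : ℝ}

theorem bd_term (hd : 0 < d) (hq : 1 < q) (hC : ∀ s : ℂ, 1 ≤ s.re → ‖G s‖ ≤ C * ‖s‖ ^ (-q))
    {s : ℂ} (hs : 1 ≤ s.re) (k : ℕ) : ‖G (s + d * k)‖ ≤ C * (1 + d * k) ^ (-q) := by
  have h0 : 0 ≤ C := by
    have := (norm_nonneg _).trans (hC 1 (by simp))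
    simpa using this
  have h1 : (1 : ℝ) + d * k ≤ (s + d * k).re := by
    simp only [add_re, mul_re, ofReal_re, natCast_re, ofReal_im, natCast_im, mul_zero, sub_zero]
    linarith
  have h2 : (0 : ℝ) < 1 + d * k := by positivity
  have h3 : (1 : ℝ) + d * k ≤ ‖s + d * k‖ := h1.trans (Complex.re_le_norm _)
  have h4 : (1 : ℝ) ≤ 1 + d * k := by
    have : 0 ≤ d * k := by positivity
    linarith
  refine (hC _ (h4.trans h1)).trans ?_
  refine mul_le_mul_of_nonneg_left ?_ h0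
  exact Real.rpow_le_rpow_of_nonpos h2 h3 (by linarith)

theorem summable_G (hd : 0 < d) (hq : 1 < q) (hC : ∀ s : ℂ, 1 ≤ s.re → ‖G s‖ ≤ C * ‖s‖ ^ (-q))
    (s : ℂ) : Summable fun k : ℕ => G (s + d * k) := by
  obtain ⟨K, hK⟩ := exists_nat_gt ((1 - s.re) / d)
  rw [div_lt_iff₀ hd] at hK
  have h1 : 1 ≤ (s + d * K).re := by
    simp only [add_re, mul_re, ofReal_re, natCast_re, ofReal_im, natCast_im, mul_zero, sub_zero]
    linarith
  have h2 : Summable fun k : ℕ => G ((s + d * K) + d * k) :=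
    Summable.of_norm_bounded (summable_bd hd hq C) fun k => bd_term hd hq hC h1 k
  refine (summable_nat_add_iff K).1 ?_
  refine h2.congr fun k => ?_
  congr 1
  push_cast
  ring

theorem Psi_add (hd : 0 < d) (hq : 1 < q) (hC : ∀ s : ℂ, 1 ≤ s.re → ‖G s‖ ≤ C * ‖s‖ ^ (-q))
    (K : ℕ) (s : ℂ) : Psi G d s = ∑ i ∈ Finset.range K, G (s + d * i) + Psi G d (s + d * K) := by
  rw [Psi, ← (summable_G hd hq hC s).sum_add_tsum_nat_add K]
  congr 1
  rw [Psi]
  congr 1
  funext k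
  congr 1
  push_cast
  ring

theorem Psi_step (hd : 0 < d) (hq : 1 < q) (hC : ∀ s : ℂ, 1 ≤ s.re → ‖G s‖ ≤ C * ‖s‖ ^ (-q))
    (s : ℂ) : Psi G d s = G s + Psi G d (s + d) := by
  have := Psi_add hd hq hC 1 s
  simpa using this

theorem Psi_diff_right (hd : 0 < d) (hq : 1 < q)
    (hC : ∀ s : ℂ, 1 ≤ s.re → ‖G s‖ ≤ C * ‖s‖ ^ (-q)) (hG : DifferentiableOn ℂ G slitPlane) :
    DifferentiableOn ℂ (Psi G d) {s | 1 < s.re} := by
  have hopen : IsOpen {s : ℂ | 1 < s.re} := isOpen_lt continuous_const Complex.continuous_re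
  refine differentiableOn_tsum_of_summable_norm (summable_bd hd hq C) (fun k => ?_) hopen
    (fun k s hs => bd_term hd hq hC (le_of_lt hs) k)
  intro s hs
  have h1 : s ∈ slitPlane := by
    rw [mem_slitPlane_iff]
    left
    exact lt_trans one_pos hs
  have h2 : DifferentiableAt ℂ G (s + d * k) :=
    hG.differentiableAt (isOpen_slitPlane.mem_nhds (add_mem_slit' h1 hd k))
  have h3 : DifferentiableAt ℂ (fun s : ℂ => s + d * k) s := by fun_prop
  exact (DifferentiableAt.comp s h2 h3).differentiableWithinAt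

theorem Psi_diff (hd : 0 < d) (hq : 1 < q)
    (hC : ∀ s : ℂ, 1 ≤ s.re → ‖G s‖ ≤ C * ‖s‖ ^ (-q)) (hG : DifferentiableOn ℂ G slitPlane) :
    DifferentiableOn ℂ (Psi G d) slitPlane := by
  have hopen : IsOpen {s : ℂ | 1 < s.re} := isOpen_lt continuous_const Complex.continuous_re
  intro s hs
  refine DifferentiableAt.differentiableWithinAt ?_
  obtain ⟨K, hK⟩ := exists_nat_gt ((1 - s.re) / d)
  rw [div_lt_iff₀ hd] at hK
  have h1 : s + d * K ∈ {s : ℂ | 1 < s.re} := by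
    simp only [mem_setOf_eq, add_re, mul_re, ofReal_re, natCast_re, ofReal_im, natCast_im, mul_zero,
      sub_zero]
    linarith
  have h2 : Psi G d = fun s => ∑ i ∈ Finset.range K, G (s + d * i) + Psi G d (s + d * K) :=
    funext fun s => Psi_add hd hq hC K s
  rw [h2]
  refine DifferentiableAt.add ?_ ?_
  · refine DifferentiableAt.fun_sum fun i _ => ?_
    have h3 : DifferentiableAt ℂ G (s + d * i) :=
      hG.differentiableAt (isOpen_slitPlane.mem_nhds (add_mem_slit' hs hd i))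
    have h4 : DifferentiableAt ℂ (fun s : ℂ => s + d * i) s := by fun_prop
    exact DifferentiableAt.comp s h3 h4
  · have h3 : DifferentiableAt ℂ (Psi G d) (s + d * K) :=
      (Psi_diff_right hd hq hC hG).differentiableAt (hopen.mem_nhds h1)
    have h4 : DifferentiableAt ℂ (fun s : ℂ => s + d * K) s := by fun_prop
    exact DifferentiableAt.comp s h3 h4

theorem Psi_tendsto (hd : 0 < d) (hq : 1 < q)
    (hC : ∀ s : ℂ, 1 ≤ s.re → ‖G s‖ ≤ C * ‖s‖ ^ (-q)) :
    Tendsto (fun x : ℝ => Psi G d x) atTop (𝓝 0) := by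
  have h0 : 0 ≤ C := by
    have := (norm_nonneg _).trans (hC 1 (by simp))
    simpa using this
  have h1 : Tendsto (fun x : ℝ => ∑' k : ℕ, G ((x : ℂ) + d * k)) atTop (𝓝 (∑' _ : ℕ, (0 : ℂ))) := by
    refine tendsto_tsum_of_dominated_convergence (summable_bd hd hq C) (fun k => ?_) ?_
    · rw [tendsto_zero_iff_norm_tendsto_zero]
      have h2 : Tendsto (fun x : ℝ => C * x ^ (-q)) atTop (𝓝 0) := by
        have := (tendsto_rpow_neg_atTop (show 0 < q by linarith)).const_mul C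
        rwa [mul_zero] at this
      refine squeeze_zero' (Filter.Eventually.of_forall fun x => norm_nonneg _) ?_ h2
      filter_upwards [eventually_ge_atTop (1 : ℝ)] with x hx
      have h3 : (x : ℝ) ≤ ((x : ℂ) + d * k).re := by
        simp only [add_re, mul_re, ofReal_re, natCast_re, ofReal_im, natCast_im, mul_zero, sub_zero]
        have : 0 ≤ d * k := by positivity
        linarith
      refine (hC _ (hx.trans h3)).trans ?_
      refine mul_le_mul_of_nonneg_left ?_ h0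
      exact Real.rpow_le_rpow_of_nonpos (by linarith) (h3.trans (Complex.re_le_norm _)) (by linarith)
    · filter_upwards [eventually_ge_atTop (1 : ℝ)] with x hx k
      exact bd_term hd hq hC (by simpa using hx) k
  simpa [Psi] using h1

/-- the solution of `Φ (x) - Φ (x + d) = G (x)` which tends to `0` -/
theorem eq_Psi (hd : 0 < d) (hq : 1 < q)
    (hC : ∀ s : ℂ, 1 ≤ s.re → ‖G s‖ ≤ C * ‖s‖ ^ (-q)) {Φ : ℝ → ℂ}
    (h0 : Tendsto Φ atTop (𝓝 0)) (h : ∀ᶠ x : ℝ in atTop, Φ x - Φ (x + d) = G x) :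
    ∀ᶠ x : ℝ in atTop, Φ x = Psi G d x := by
  obtain ⟨X, hX⟩ := eventually_atTop.1 h
  filter_upwards [eventually_ge_atTop X] with x hx
  have h1 : ∀ n : ℕ, Φ x - Psi G d x = Φ (x + d * n) - Psi G d ((x + d * n : ℝ)) := by
    intro n
    induction n with
    | zero => simp
    | succ n ih =>
      rw [ih]
      have h2 := hX (x + d * n) (by
        have : 0 ≤ d * n := by positivity
        linarith)
      have h3 := Psi_step hd hq hC ((x + d * n : ℝ) : ℂ)
      have h4 : x + d * ((n + 1 : ℕ) : ℝ) = x + d * n + d := by push_cast; ring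
      rw [h4]
      have h5 : (((x + d * n + d : ℝ)) : ℂ) = ((x + d * n : ℝ) : ℂ) + d := by push_cast; ring
      rw [h5, h3, ← h2]
      ring
  have h2 : Tendsto (fun n : ℕ => x + d * (n : ℝ)) atTop atTop := by
    refine tendsto_atTop_add_const_left _ _ ?_
    exact Tendsto.const_mul_atTop hd tendsto_natCast_atTop_atTop
  have h3 : Tendsto (fun n : ℕ => Φ (x + d * n) - Psi G d ((x + d * n : ℝ))) atTop (𝓝 (0 - 0)) :=
    (h0.comp h2).sub ((Psi_tendsto hd hq hC).comp h2)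
  have h4 : Tendsto (fun _ : ℕ => Φ x - Psi G d x) atTop (𝓝 (0 - 0)) :=
    h3.congr fun n => (h1 n).symm
  have h5 := tendsto_nhds_unique h4 tendsto_const_nhds
  rw [sub_zero] at h5
  exact (sub_eq_zero.1 h5.symm)

end

/-! ## 3. The oddness relation -/

/-- identity theorem from real points -/
theorem eqOn_of_real {f g : ℂ → ℂ} {U : Set ℂ} (hU : IsOpen U) (hc : IsPreconnected U)
    (hf : DifferentiableOn ℂ f U) (hg : DifferentiableOn ℂ g U) {x₀ : ℝ} (hx : (x₀ : ℂ) ∈ U)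
    (h : ∀ᶠ x : ℝ in 𝓝 x₀, f x = g x) : EqOn f g U := by
  refine AnalyticOnNhd.eqOn_of_preconnected_of_frequently_eq (hf.analyticOnNhd hU)
    (hg.analyticOnNhd hU) hc hx ?_
  have h1 : Tendsto (fun x : ℝ => (x : ℂ)) (𝓝[≠] x₀) (𝓝[≠] (x₀ : ℂ)) := by
    refine tendsto_nhdsWithin_of_tendsto_nhds_of_eventually_within _
      (Complex.continuous_ofReal.continuousAt.tendsto.mono_left nhdsWithin_le_nhds) ?_
    filter_upwards [self_mem_nhdsWithin] with x hx
    exact fun h => hx (Complex.ofReal_injective h)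
  have h2 : ∀ᶠ x : ℝ in 𝓝[≠] x₀, f x = g x := h.filter_mono nhdsWithin_le_nhds
  exact h1.frequently h2.frequently

theorem neg_cpow {s : ℂ} (hs : s.im < 0) (a : ℂ) :
    (-s) ^ a = exp (Real.pi * I * a) * s ^ a := by
  have h0 : s ≠ 0 := by
    rintro rfl
    simp at hs
  rw [Complex.cpow_def_of_ne_zero (neg_ne_zero.2 h0), Complex.cpow_def_of_ne_zero h0,
    ← Complex.exp_add]
  congr 1
  have h1 : Complex.log (-s) = Complex.log s + Real.pi * I := by
    rw [Complex.log, Complex.log, norm_neg, Complex.arg_neg_eq_arg_add_pi_of_im_neg hs]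
    push_cast
    ring
  rw [h1]
  ring

theorem exp_pi_add_three (b : ℂ) : exp (Real.pi * I * (b + 3)) = -exp (Real.pi * I * b) := by
  have h1 : (Real.pi : ℂ) * I * (b + 3) = Real.pi * I * b + (Real.pi * I + 2 * Real.pi * I) := by
    ring
  rw [h1, Complex.exp_add, Complex.exp_add, Complex.exp_pi_mul_I, Complex.exp_two_pi_mul_I]
  ring

/-- half planes are convex, hence preconnected -/
theorem pre_re (R : ℝ) : IsPreconnected {s : ℂ | R < s.re} :=
  (convex_halfSpace_re_gt R).isPreconnected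

theorem pre_im (R : ℝ) : IsPreconnected {s : ℂ | R < s.im} :=
  (convex_halfSpace_im_gt R).isPreconnected

theorem pre_im' (R : ℝ) : IsPreconnected {s : ℂ | s.im < R} :=
  (convex_halfSpace_im_lt R).isPreconnected

theorem odd_rel {b : ℝ} {F P : ℂ → ℂ} (hF : AnalyticAt ℂ F 0)
    (odd : ∀ᶠ y in 𝓝 (0 : ℂ), F (-y) = -F y) (hP : DifferentiableOn ℂ P slitPlane)
    (h : ∀ᶠ x : ℝ in atTop, (x : ℂ) ^ ((b : ℂ) + 3) * F (1 / x) = P x) :
    ∀ s : ℂ, s.im < 0 → P (-s) = exp (Real.pi * I * b) * P s := by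
  obtain ⟨ε, hε, hE⟩ := Metric.eventually_nhds_iff_ball.1 (hF.eventually_analyticAt.and odd)
  obtain ⟨X, hX⟩ := eventually_atTop.1 h
  set R : ℝ := max (1 / ε) 1 with hR
  have hR1 : 1 ≤ R := le_max_right _ _
  have hR0 : 0 < R := by linarith
  have hball : ∀ s : ℂ, R < ‖s‖ → 1 / s ∈ ball (0 : ℂ) ε := by
    intro s hs
    rw [mem_ball_zero_iff, norm_div, norm_one]
    have h1 : 1 / ε < ‖s‖ := (le_max_left _ _).trans_lt hs
    have h2 : 0 < ‖s‖ := hR0.trans hs
    rw [div_lt_iff₀ h2]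
    rw [div_lt_iff₀ hε] at h1
    linarith
  set Φ : ℂ → ℂ := fun s => s ^ ((b : ℂ) + 3) * F (1 / s) with hΦ
  have hΦd : ∀ s : ℂ, s ∈ slitPlane → R < ‖s‖ → DifferentiableAt ℂ Φ s := by
    intro s hs hs2
    have h0 : s ≠ 0 := slitPlane_ne_zero hs
    have h1 : DifferentiableAt ℂ (fun s : ℂ => s ^ ((b : ℂ) + 3)) s :=
      (differentiableAt_id).cpow_const hs
    have h2 : DifferentiableAt ℂ F (1 / s) := (hE _ (hball s hs2)).1.differentiableAt
    have h3 : DifferentiableAt ℂ (fun s : ℂ => 1 / s) s := by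
      simp only [one_div]
      exact differentiableAt_inv h0
    exact h1.mul (DifferentiableAt.comp s h2 h3)
  -- the three half planes
  have m1 : ∀ s ∈ {s : ℂ | R < s.re}, s ∈ slitPlane ∧ R < ‖s‖ := fun s hs =>
    ⟨mem_slitPlane_iff.2 (Or.inl (hR0.trans hs)), lt_of_lt_of_le hs (Complex.re_le_norm s)⟩
  have m2 : ∀ s ∈ {s : ℂ | R < s.im}, s ∈ slitPlane ∧ R < ‖s‖ := fun s hs =>
    ⟨mem_slitPlane_iff.2 (Or.inr (hR0.trans hs).ne'),
      lt_of_lt_of_le hs ((le_abs_self _).trans (Complex.abs_im_le_norm s))⟩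
  have m3 : ∀ s ∈ {s : ℂ | s.im < -R}, s ∈ slitPlane ∧ R < ‖s‖ := fun s hs =>
    ⟨mem_slitPlane_iff.2 (Or.inr (lt_trans hs (by linarith)).ne), by
      have h1 : s.im < -R := hs
      have h2 : R < |s.im| := by
        rw [lt_abs]; right; linarith
      exact lt_of_lt_of_le h2 (Complex.abs_im_le_norm s)⟩
  have o1 : IsOpen {s : ℂ | R < s.re} := isOpen_lt continuous_const Complex.continuous_re
  have o2 : IsOpen {s : ℂ | R < s.im} := isOpen_lt continuous_const Complex.continuous_im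
  have o3 : IsOpen {s : ℂ | s.im < -R} := isOpen_lt Complex.continuous_im continuous_const
  have dΦ : ∀ {U : Set ℂ}, (∀ s ∈ U, s ∈ slitPlane ∧ R < ‖s‖) → DifferentiableOn ℂ Φ U :=
    fun hU s hs => (hΦd s (hU s hs).1 (hU s hs).2).differentiableWithinAt
  have dP : ∀ {U : Set ℂ}, (∀ s ∈ U, s ∈ slitPlane ∧ R < ‖s‖) → DifferentiableOn ℂ P U :=
    fun hU => hP.mono fun s hs => (hU s hs).1
  have e1 : EqOn Φ P {s : ℂ | R < s.re} := by
    refine eqOn_of_real (x₀ := max X R + 1) o1 (pre_re R) (dΦ m1) (dP m1) ?_ ?_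
    · have : R ≤ max X R := le_max_right _ _
      simp only [mem_setOf_eq, ofReal_re]
      linarith
    · have h1 : X < max X R + 1 := by
        have : X ≤ max X R := le_max_left _ _
        linarith
      filter_upwards [lt_mem_nhds h1] with x hx
      exact hX x hx.le
  have e2 : EqOn Φ P {s : ℂ | R < s.im} := by
    refine AnalyticOnNhd.eqOn_of_preconnected_of_eventuallyEq ((dΦ m2).analyticOnNhd o2)
      ((dP m2).analyticOnNhd o2) (pre_im R) (z₀ := (⟨R + 1, R + 1⟩ : ℂ)) ?_ ?_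
    · simp only [mem_setOf_eq]; linarith
    · filter_upwards [o1.mem_nhds (show (⟨R + 1, R + 1⟩ : ℂ) ∈ {s : ℂ | R < s.re} by
        simp only [mem_setOf_eq]; linarith)] with s hs
      exact e1 hs
  have e3 : EqOn Φ P {s : ℂ | s.im < -R} := by
    refine AnalyticOnNhd.eqOn_of_preconnected_of_eventuallyEq ((dΦ m3).analyticOnNhd o3)
      ((dP m3).analyticOnNhd o3) (pre_im' (-R)) (z₀ := (⟨R + 1, -(R + 1)⟩ : ℂ)) ?_ ?_
    · simp only [mem_setOf_eq]; linarith
    · filter_upwards [o1.mem_nhds (show (⟨R + 1, -(R + 1)⟩ : ℂ) ∈ {s : ℂ | R < s.re} by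
        simp only [mem_setOf_eq]; linarith)] with s hs
      exact e1 hs
  -- the relation far away
  have r1 : ∀ s ∈ {s : ℂ | s.im < -R}, P (-s) = exp (Real.pi * I * b) * P s := by
    intro s hs
    have hs' : -s ∈ {s : ℂ | R < s.im} := by
      simp only [mem_setOf_eq, neg_im] at hs ⊢
      linarith
    rw [← e2 hs', ← e3 hs]
    simp only [hΦ]
    have h1 : s.im < 0 := lt_trans hs (by linarith)
    rw [neg_cpow h1, exp_pi_add_three]
    have h2 := (hE _ (hball s (m3 s hs).2)).2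
    have h3 : (1 : ℂ) / -s = -(1 / s) := by rw [div_neg]
    rw [h3, h2]
    ring
  have o4 : IsOpen {s : ℂ | s.im < 0} := isOpen_lt Complex.continuous_im continuous_const
  have d1 : DifferentiableOn ℂ (fun s => P (-s)) {s : ℂ | s.im < 0} := by
    intro s hs
    have h1 : -s ∈ slitPlane := by
      rw [mem_slitPlane_iff]
      right
      have : s.im < 0 := hs
      simp only [neg_im]
      linarith
    have h2 : DifferentiableAt ℂ P (-s) := hP.differentiableAt (isOpen_slitPlane.mem_nhds h1)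
    exact (DifferentiableAt.comp s h2 differentiable_neg.differentiableAt).differentiableWithinAt
  have d2 : DifferentiableOn ℂ (fun s => exp (Real.pi * I * b) * P s) {s : ℂ | s.im < 0} := by
    intro s hs
    have h1 : s ∈ slitPlane := mem_slitPlane_iff.2 (Or.inr (ne_of_lt hs))
    exact ((hP.differentiableAt (isOpen_slitPlane.mem_nhds h1)).const_mul _).differentiableWithinAt
  have e4 : EqOn (fun s => P (-s)) (fun s => exp (Real.pi * I * b) * P s) {s : ℂ | s.im < 0} := by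
    refine AnalyticOnNhd.eqOn_of_preconnected_of_eventuallyEq (d1.analyticOnNhd o4)
      (d2.analyticOnNhd o4) (pre_im' 0) (z₀ := (⟨0, -(R + 1)⟩ : ℂ)) ?_ ?_
    · simp only [mem_setOf_eq]; linarith
    · filter_upwards [o3.mem_nhds (show (⟨0, -(R + 1)⟩ : ℂ) ∈ {s : ℂ | s.im < -R} by
        simp only [mem_setOf_eq]; linarith)] with s hs
      exact r1 s hs
  exact fun s hs => e4 hs

/-! ## 4. The kill -/

theorem exp_pi_cpow {y : ℝ} (hy : 0 < y) (a : ℂ) :
    ((-(I * y) : ℂ)) ^ a * exp (Real.pi * I * a) = (I * y : ℂ) ^ a := by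
  have h1 : (-(I * y) : ℂ).im < 0 := by simp [hy]
  have h2 := neg_cpow h1 a
  rw [neg_neg] at h2
  rw [h2, mul_comm]

theorem real_mul_cpow {y : ℝ} (hy : 0 < y) {z : ℂ} (hz : z ≠ 0) (a : ℂ) :
    ((y : ℂ) * z) ^ a = (y : ℂ) ^ a * z ^ a := by
  have hy0 : (y : ℂ) ≠ 0 := by exact_mod_cast hy.ne'
  rw [Complex.cpow_def_of_ne_zero (mul_ne_zero hy0 hz), Complex.cpow_def_of_ne_zero hy0,
    Complex.cpow_def_of_ne_zero hz, ← Complex.exp_add, Complex.log_ofReal_mul hy hz,
    Complex.ofReal_log hy.le]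
  congr 1
  ring

/-- The kill.  `b < 2` is hidden in `Φ → 0`. -/
theorem kill {b d q C : ℝ} (hbn : ∀ n : ℕ, (n : ℝ) ≠ b + 1) (hd : 0 < d) (hq : 1 < q)
    {F G A : ℂ → ℂ} (hF : AnalyticAt ℂ F 0) (odd : ∀ᶠ y in 𝓝 (0 : ℂ), F (-y) = -F y)
    (hG : DifferentiableOn ℂ G slitPlane) (hC : ∀ s : ℂ, 1 ≤ s.re → ‖G s‖ ≤ C * ‖s‖ ^ (-q))
    (h0 : Tendsto (fun x : ℝ => (x : ℂ) ^ ((b : ℂ) + 3) * F (1 / x)) atTop (𝓝 0))
    (rel : ∀ᶠ x : ℝ in atTop, (x : ℂ) ^ ((b : ℂ) + 3) * F (1 / x) -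
      ((x : ℂ) + d) ^ ((b : ℂ) + 3) * F (1 / (x + d)) = G x)
    (hA : AnalyticAt ℂ A 0) {c0 c1 c2 : ℂ}
    (loc : ∀ᶠ s in 𝓝 (0 : ℂ), s ∈ slitPlane →
      G s = A s + c0 * s ^ (b : ℂ) + c1 * s ^ ((b : ℂ) + 1) + c2 * s ^ ((b : ℂ) + 2)) :
    c1 = 0 := by
  have e1 : ∀ᶠ x : ℝ in atTop, (x : ℂ) ^ ((b : ℂ) + 3) * F (1 / x) = Psi G d x := by
    refine eq_Psi hd hq hC (Φ := fun x : ℝ => (x : ℂ) ^ ((b : ℂ) + 3) * F (1 / x)) h0 ?_
    filter_upwards [rel] with x hx
    push_cast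
    exact hx
  have hPd := Psi_diff hd hq hC hG
  have e2 := odd_rel hF odd hPd e1
  -- the analytic part
  set B : ℂ → ℂ := fun s => A s + Psi G d (s + d) with hB
  have hBan : AnalyticAt ℂ B 0 := by
    refine hA.add ?_
    have h1 : (d : ℂ) ∈ slitPlane := by
      rw [mem_slitPlane_iff]; left; simpa using hd
    have h2 : AnalyticAt ℂ (Psi G d) ((0 : ℂ) + d) := by
      rw [zero_add]
      exact hPd.analyticAt (isOpen_slitPlane.mem_nhds h1)
    have h3 : AnalyticAt ℂ (fun s : ℂ => s + d) 0 := analyticAt_id.add analyticAt_const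
    exact h2.comp_of_eq h3 rfl
  have e3 : ∀ᶠ s in 𝓝 (0 : ℂ), s ∈ slitPlane →
      Psi G d s = B s + c0 * s ^ (b : ℂ) + c1 * s ^ ((b : ℂ) + 1) + c2 * s ^ ((b : ℂ) + 2) := by
    filter_upwards [loc] with s hs hs2
    rw [Psi_step hd hq hC s, hs hs2, hB]
    ring
  have t1 : Tendsto (fun y : ℝ => (I * y : ℂ)) (𝓝[>] 0) (𝓝 0) := by
    have : Continuous fun y : ℝ => (I * y : ℂ) := by fun_prop
    have h1 := this.tendsto 0
    simp only [Complex.ofReal_zero, mul_zero] at h1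
    exact h1.mono_left nhdsWithin_le_nhds
  have t2 : Tendsto (fun y : ℝ => (-(I * y) : ℂ)) (𝓝[>] 0) (𝓝 0) := by
    have := t1.neg
    rwa [neg_zero] at this
  -- the function that should be a non-integer power
  set D : ℂ → ℂ := fun z => B (I * z) - exp (Real.pi * I * b) * B (-(I * z)) with hD
  have hDan : AnalyticAt ℂ D 0 := by
    have h1 : AnalyticAt ℂ (fun z : ℂ => I * z) 0 := analyticAt_const.mul analyticAt_id
    have h2 : AnalyticAt ℂ (fun z : ℂ => -(I * z)) 0 := h1.neg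
    refine AnalyticAt.sub (hBan.comp_of_eq h1 (by simp)) ?_
    exact analyticAt_const.mul (hBan.comp_of_eq h2 (by simp))
  have e4 : ∀ᶠ y : ℝ in 𝓝[>] 0, D y = (-2 * c1 * I ^ ((b : ℂ) + 1)) * ((y ^ (b + 1) : ℝ) : ℂ) := by
    filter_upwards [t1.eventually e3, t2.eventually e3, self_mem_nhdsWithin] with y h1 h2 h3
    have hy : (0 : ℝ) < y := h3
    have m1 : (I * y : ℂ) ∈ slitPlane := by
      rw [mem_slitPlane_iff]; right; simp [hy.ne']
    have m2 : (-(I * y) : ℂ) ∈ slitPlane := by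
      rw [mem_slitPlane_iff]; right; simp [hy.ne']
    have g1 := h1 m1
    have g2 := h2 m2
    have g3 := e2 (-(I * y)) (by simp [hy])
    rw [neg_neg, g1, g2] at g3
    have p0 := exp_pi_cpow hy (b : ℂ)
    have p1 := exp_pi_cpow hy ((b : ℂ) + 1)
    have p2 := exp_pi_cpow hy ((b : ℂ) + 2)
    have q1 : exp (Real.pi * I * ((b : ℂ) + 1)) = -exp (Real.pi * I * b) := by
      rw [mul_add, Complex.exp_add, mul_one, Complex.exp_pi_mul_I]; ring
    have q2 : exp (Real.pi * I * ((b : ℂ) + 2)) = exp (Real.pi * I * b) := by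
      rw [mul_add, Complex.exp_add, show (Real.pi : ℂ) * I * 2 = 2 * Real.pi * I by ring,
        Complex.exp_two_pi_mul_I]
      ring
    rw [q1] at p1
    rw [q2] at p2
    have w1 : (I * y : ℂ) ^ ((b : ℂ) + 1) = I ^ ((b : ℂ) + 1) * ((y ^ (b + 1) : ℝ) : ℂ) := by
      rw [mul_comm I (y : ℂ), real_mul_cpow hy Complex.I_ne_zero, Complex.ofReal_cpow hy.le]
      push_cast
      ring
    have w2 : -2 * c1 * I ^ ((b : ℂ) + 1) * ((y ^ (b + 1) : ℝ) : ℂ) =
        -2 * c1 * (I * y : ℂ) ^ ((b : ℂ) + 1) := by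
      rw [w1]; ring
    rw [w2]
    simp only [hD]
    linear_combination g3 + c0 * p0 + c2 * p2 - c1 * p1
  have e5 := nonint hDan hbn e4
  have hI : I ^ ((b : ℂ) + 1) ≠ 0 := by
    rw [Complex.cpow_def_of_ne_zero Complex.I_ne_zero]
    exact Complex.exp_ne_zero _
  have e6 := (mul_eq_zero.1 e5).resolve_right hI
  simpa using e6

end Vale.Agent.P097.H787
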